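import Crest.Agent.Lib.SnakyC.Eval

/-!
Symmetries of the game and the final assembly: it suffices to treat Breaker's first replies in the
octant `0 ≤ y ≤ x`.
-/

set_option autoImplicit false

open Crest.CombinatoricsR.PolyominoGame

namespace Crest.Agent.Lib.SnakyC

/-- A symmetry of the game with inverse `ψ`. -/
structure Sym (φ ψ : Cell → Cell) : Prop where
  left : ∀ c, ψ (φ c) = c
  right : ∀ c, φ (ψ c) = c
  copy : ∀ X : Set Cell, ContainsCopy X → ContainsCopy (φ '' X)
  copy' : ∀ X : Set Cell, ContainsCopy X → ContainsCopy (ψ '' X)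

lemma Sym.symm {φ ψ : Cell → Cell} (h : Sym φ ψ) : Sym ψ φ :=
  ⟨h.right, h.left, h.copy', h.copy⟩

lemma Sym.comp {φ ψ φ' ψ' : Cell → Cell} (h : Sym φ ψ) (h' : Sym φ' ψ') :
    Sym (φ' ∘ φ) (ψ ∘ ψ') where
  left c := by simp [h'.left, h.left]
  right c := by simp [h'.right, h.right]
  copy X hX := by
    rw [Set.image_comp]
    exact h'.copy _ (h.copy _ hX)
  copy' X hX := by
    rw [Set.image_comp]
    exact h.copy' _ (h'.copy' _ hX)

lemma Sym.refl : Sym id id where
  left _ := rfl
  right _ := rfl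
  copy X hX := by simpa using hX
  copy' X hX := by simpa using hX

/-- Reflection in the first coordinate. -/
def rx (c : Cell) : Cell := (-c.1, c.2)
/-- Reflection in the second coordinate. -/
def ry (c : Cell) : Cell := (c.1, -c.2)
/-- Exchange of the coordinates. -/
def sw (c : Cell) : Cell := (c.2, c.1)

lemma rx_copy (X : Set Cell) (h : ContainsCopy X) : ContainsCopy (rx '' X) := by
  obtain ⟨t, e1, e2, h1, h2, h3⟩ := h
  refine ⟨(-t.1, t.2), -e1, e2, ?_, h2, ?_⟩
  · rcases h1 with h1 | h1 <;> simp [h1]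
  · rcases h3 with h3 | h3
    · left
      intro p hp
      refine ⟨_, h3 p hp, ?_⟩
      simp [rx]; ring
    · right
      intro p hp
      refine ⟨_, h3 p hp, ?_⟩
      simp [rx]; ring

lemma ry_copy (X : Set Cell) (h : ContainsCopy X) : ContainsCopy (ry '' X) := by
  obtain ⟨t, e1, e2, h1, h2, h3⟩ := h
  refine ⟨(t.1, -t.2), e1, -e2, h1, ?_, ?_⟩
  · rcases h2 with h2 | h2 <;> simp [h2]
  · rcases h3 with h3 | h3
    · left
      intro p hp
      refine ⟨_, h3 p hp, ?_⟩
      simp [ry]; ring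
    · right
      intro p hp
      refine ⟨_, h3 p hp, ?_⟩
      simp [ry]; ring

lemma sw_copy (X : Set Cell) (h : ContainsCopy X) : ContainsCopy (sw '' X) := by
  obtain ⟨t, e1, e2, h1, h2, h3⟩ := h
  refine ⟨(t.2, t.1), e2, e1, h2, h1, ?_⟩
  rcases h3 with h3 | h3
  · right
    intro p hp
    exact ⟨_, h3 p hp, rfl⟩
  · left
    intro p hp
    exact ⟨_, h3 p hp, rfl⟩

lemma sym_rx : Sym rx rx := ⟨by simp [rx], by simp [rx], rx_copy, rx_copy⟩
lemma sym_ry : Sym ry ry := ⟨by simp [ry], by simp [ry], ry_copy, ry_copy⟩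
lemma sym_sw : Sym sw sw := ⟨by simp [sw], by simp [sw], sw_copy, sw_copy⟩

theorem Win.map {φ ψ : Cell → Cell} (h : Sym φ ψ) (n : ℕ) (M B : Finset Cell) (hw : Win n M B) :
    Win n (M.image φ) (B.image φ) := by
  have hinj : Function.Injective φ := fun a b hab => by
    have := congrArg ψ hab
    rwa [h.left, h.left] at this
  induction n generalizing M B with
  | zero =>
    have : ContainsCopy (M : Set Cell) := hw
    have h2 := h.copy _ this
    show ContainsCopy ((M.image φ : Finset Cell) : Set Cell)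
    rwa [Finset.coe_image]
  | succ n ih =>
    obtain ⟨m, h1, h2, h3⟩ := hw
    refine ⟨φ m, ?_, ?_, fun x hx hx' => ?_⟩
    · rwa [hinj.mem_finset_image]
    · rwa [hinj.mem_finset_image]
    · have e : φ (ψ x) = x := h.right x
      have hx1 : ψ x ∉ insert m M := by
        intro hc
        apply hx
        rw [← Finset.image_insert]
        exact Finset.mem_image.2 ⟨_, hc, e⟩
      have hx2 : ψ x ∉ B := by
        intro hc
        exact hx' (Finset.mem_image.2 ⟨_, hc, e⟩)
      have := ih _ _ (h3 _ hx1 hx2)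
      rw [Finset.image_insert, Finset.image_insert, e] at this
      exact this

/-- Every reply is moved to the octant by a symmetry fixing the origin. -/
lemma exists_sym (x : Cell) :
    ∃ φ ψ, Sym φ ψ ∧ φ (0, 0) = (0, 0) ∧ ψ (0, 0) = (0, 0) ∧ 0 ≤ (φ x).2 ∧ (φ x).2 ≤ (φ x).1 := by
  have step1 : ∃ φ ψ, Sym φ ψ ∧ φ (0, 0) = (0, 0) ∧ ψ (0, 0) = (0, 0) ∧ 0 ≤ (φ x).1 ∧ 0 ≤ (φ x).2 := by
    by_cases h1 : 0 ≤ x.1 <;> by_cases h2 : 0 ≤ x.2
    · exact ⟨id, id, Sym.refl, rfl, rfl, h1, h2⟩
    · exact ⟨ry, ry, sym_ry, by simp [ry], by simp [ry], by simpa [ry] using h1, by simp [ry]; omega⟩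
    · exact ⟨rx, rx, sym_rx, by simp [rx], by simp [rx], by simp [rx]; omega, by simpa [rx] using h2⟩
    · exact ⟨ry ∘ rx, rx ∘ ry, sym_rx.comp sym_ry, by simp [rx, ry], by simp [rx, ry],
        by simp [rx, ry]; omega, by simp [rx, ry]; omega⟩
  obtain ⟨φ, ψ, hs, h0, h0', h1, h2⟩ := step1
  by_cases h3 : (φ x).2 ≤ (φ x).1
  · exact ⟨φ, ψ, hs, h0, h0', h2, h3⟩
  · refine ⟨sw ∘ φ, ψ ∘ sw, hs.comp sym_sw, by simp [sw, h0], by simp [sw, h0'], ?_, ?_⟩
    · simpa [sw] using h1
    · simp only [Function.comp, sw]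
      omega

/-- Symmetry reduction of the first reply. -/
theorem win21_of_octant
    (h : ∀ x : Cell, x ≠ (0, 0) → 0 ≤ x.2 → x.2 ≤ x.1 → Win 20 {(0, 0)} {x}) : Win 21 ∅ ∅ := by
  refine ⟨(0, 0), by simp, by simp, fun x hx _ => ?_⟩
  have hx0 : x ≠ (0, 0) := by
    intro he
    apply hx
    simp [he]
  obtain ⟨φ, ψ, hs, h0, h0', h1, h2⟩ := exists_sym x
  have hne : φ x ≠ (0, 0) := by
    intro he
    apply hx0
    have := hs.left x
    rw [he, h0'] at this
    exact this.symm
  have hw := h _ hne h1 h2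
  have := Win.map hs.symm _ _ _ hw
  simp only [Finset.image_singleton, h0', hs.left] at this
  simpa using this

/-- Index of the origin. -/
def orig : ℕ := 528

lemma cellOf_orig : cellOf orig = (0, 0) := by
  simp [cellOf, orig]

/-- The octant in terms of indices. -/
def domB (i : ℕ) : Bool := Nat.ble 16 (i / 32) && Nat.ble (i / 32) (i % 32)

lemma domB_true {i : ℕ} (h1 : 0 ≤ (cellOf i).2) (h2 : (cellOf i).2 ≤ (cellOf i).1) :
    domB i = true := by
  simp only [cellOf] at h1 h2
  simp only [domB, Bool.and_eq_true, Nat.ble_eq]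
  omega

/-- Final assembly: facts with support the origin whose zones' intersection misses the octant. -/
theorem win21_of_cov {d S Z I : ℕ} (hc : Cov d S Z I) (hd : d ≤ 20)
    (hS : ∀ i, S.testBit i = true → i = orig) (hZ : Z.testBit orig = false)
    (hI : I < 2 ^ 1024) (hI2 : ∀ i, i < 1024 → I.testBit i = true → domB i = false) :
    Win 21 ∅ ∅ := by
  apply win21_of_octant
  intro x hx h1 h2
  have hx' : ∀ i, I.testBit i = true → cellOf i ≠ x := by
    intro i hi he
    subst he
    have hlt : i < 1024 := by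
      by_contra hge
      have : I.testBit i = false := Nat.testBit_lt_two_pow (lt_of_lt_of_le hI
        (Nat.pow_le_pow_right (by decide) (not_lt.mp hge)))
      rw [this] at hi
      exact absurd hi (by simp)
    have := hI2 i hlt hi
    rw [domB_true h1 h2] at this
    exact absurd this (by simp)
  obtain ⟨Sj, Zj, hv, h3, h4, h5⟩ := hc x hx'
  apply (hv.mono hd)
  · intro i hi
    rw [hS i (h3 i hi), cellOf_orig]
    simp
  · intro i hi
    have hne : i ≠ orig := by
      rintro rfl
      rw [h4 _ hi] at hZ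
      exact absurd hZ (by simp)
    constructor
    · intro hmem
      rw [Finset.mem_singleton, ← cellOf_orig] at hmem
      exact hne (cellOf_inj hmem)
    · simpa using h5 i hi

end Crest.Agent.Lib.SnakyC
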