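import Crest.Agent.Lib.SnakyC.Cert

/-!
A kernel-evaluated stack machine checking certificates.  Programs are natural number literals
holding `2^k` 32-bit words, split recursively; facts shared by several parents live in a persistent
Braun tree.  Everything is written with recursors directly, to keep kernel reduction cheap.
-/

set_option autoImplicit false

namespace Crest.Agent.Lib.SnakyC

/-- Persistent store of facts (a Braun tree). -/
inductive Tr where
  | nil : Tr
  | node (S Z d : ℕ) (l r : Tr) : Tr

/-- Stack of facts. -/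
inductive Stk where
  | nil : Stk
  | cons (S Z d : ℕ) (rest : Stk) : Stk

/-- All facts in the store are valid. -/
def Tr.All : Tr → Prop
  | .nil => True
  | .node S Z d l r => Valid d S Z ∧ l.All ∧ r.All

/-- All facts in the stack are valid. -/
def Stk.All : Stk → Prop
  | .nil => True
  | .cons S Z d r => Valid d S Z ∧ r.All

/-- Push the fact with index `i` of the store. -/
noncomputable def Tr.load (t : Tr) : ℕ → Stk → Stk :=
  Tr.rec (motive := fun _ => ℕ → Stk → Stk)
    (fun _ k => Stk.cons 1 1 0 k)
    (fun S Z d _ _ il ir i k =>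
      cond (Nat.beq i 0) (Stk.cons S Z d k)
        (cond (Nat.beq (Nat.land i 1) 1) (il (Nat.shiftRight i 1) k)
          (ir (Nat.pred (Nat.shiftRight i 1)) k))) t

lemma Tr.load_all {t : Tr} (ht : t.All) (i : ℕ) {k : Stk} (hk : k.All) : (Tr.load t i k).All := by
  induction t generalizing i with
  | nil => exact ⟨valid_junk, hk⟩
  | node S Z d l r il ir =>
    show (cond (Nat.beq i 0) (Stk.cons S Z d k)
        (cond (Nat.beq (Nat.land i 1) 1) (Tr.load l (Nat.shiftRight i 1) k)
          (Tr.load r (Nat.pred (Nat.shiftRight i 1)) k))).All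
    cases Nat.beq i 0 with
    | true => exact ⟨ht.1, hk⟩
    | false =>
      simp only [cond_false]
      cases Nat.beq (Nat.land i 1) 1 with
      | true => exact il ht.2.1 _
      | false => exact ir ht.2.2 _

/-- Add a fact at Braun index `i`. -/
noncomputable def Tr.ins (t : Tr) : ℕ → ℕ → ℕ → ℕ → Tr :=
  Tr.rec (motive := fun _ => ℕ → ℕ → ℕ → ℕ → Tr)
    (fun _ S Z d => Tr.node S Z d .nil .nil)
    (fun S0 Z0 d0 l r il ir i S Z d =>
      cond (Nat.beq (Nat.land i 1) 1)
        (Tr.node S0 Z0 d0 (il (Nat.shiftRight i 1) S Z d) r)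
        (Tr.node S0 Z0 d0 l (ir (Nat.pred (Nat.shiftRight i 1)) S Z d))) t

lemma Tr.ins_all {t : Tr} (ht : t.All) (i : ℕ) {S Z d : ℕ} (h : Valid d S Z) :
    (Tr.ins t i S Z d).All := by
  induction t generalizing i with
  | nil => exact ⟨h, trivial, trivial⟩
  | node S0 Z0 d0 l r il ir =>
    show (cond (Nat.beq (Nat.land i 1) 1)
        (Tr.node S0 Z0 d0 (Tr.ins l (Nat.shiftRight i 1) S Z d) r)
        (Tr.node S0 Z0 d0 l (Tr.ins r (Nat.pred (Nat.shiftRight i 1)) S Z d))).All
    cases Nat.beq (Nat.land i 1) 1 with
    | true => exact ⟨ht.1, il ht.2.1 _, ht.2.2⟩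
    | false => exact ⟨ht.1, ht.2.1, ir ht.2.2 _⟩

/-- Maximum. -/
def mx (a b : ℕ) : ℕ := cond (Nat.ble a b) b a

lemma mx_eq (a b : ℕ) : mx a b = max a b := by
  unfold mx
  cases h : Nat.ble a b with
  | true => have := Nat.le_of_ble_eq_true h; simp [this]
  | false =>
    have : ¬ a ≤ b := by
      intro h2
      have := Nat.ble_eq_true_of_le h2
      rw [h] at this
      exact absurd this (by simp)
    simp; omega

/-- Accumulator of a node's children. -/
structure Acc where
  S : ℕ
  Z : ℕ
  I : ℕ
  d : ℕ
  k : Stk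

/-- Fold over `r` more children on the stack. -/
noncomputable def kids (r : ℕ) : Acc → Acc :=
  Nat.rec (motive := fun _ => Acc → Acc) (fun a => a)
    (fun _ ih a =>
      Stk.casesOn (motive := fun _ => Acc) a.k a
        (fun S Z d rest => ih (Acc.mk (Nat.lor a.S S) (Nat.lor a.Z Z) (Nat.land a.I Z) (mx a.d d) rest))) r

lemma kids_all (r : ℕ) (a : Acc) (h : Cov a.d a.S a.Z a.I) (hk : a.k.All) :
    Cov (kids r a).d (kids r a).S (kids r a).Z (kids r a).I ∧ (kids r a).k.All := by
  induction r generalizing a with
  | zero => exact ⟨h, hk⟩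
  | succ r ih =>
    show Cov (Stk.casesOn (motive := fun _ => Acc) a.k a
        (fun S Z d rest => kids r (Acc.mk (Nat.lor a.S S) (Nat.lor a.Z Z) (Nat.land a.I Z) (mx a.d d) rest))).d _ _ _ ∧ _
    rcases a with ⟨aS, aZ, aI, ad, ak⟩
    cases ak with
    | nil => exact ⟨h, hk⟩
    | cons S Z d rest =>
      apply ih
      · have := h.add hk.1
        simpa [mx_eq] using this
      · exact hk.2

/-- Finish a node with move `m`, `r` more children on the stack. -/
noncomputable def finish (m r : ℕ) (k : Stk) : Stk :=
  Stk.casesOn (motive := fun _ => Stk) k k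
    (fun S Z d rest =>
      Acc.casesOn (motive := fun _ => Stk) (kids r (Acc.mk S Z Z d rest))
        (fun S' Z' I' d' k' =>
          cond (Nat.beq I' 0)
            (cond (Nat.beq (Nat.land (Nat.shiftRight Z' m) 1) 0)
              (Stk.cons (clr S' m) (Nat.lor Z' (bit m)) (Nat.succ d') k')
              (Stk.cons 1 1 0 k'))
            (Stk.cons 1 1 0 k')))

lemma testBit_of_land {Z m : ℕ} (h : Nat.beq (Nat.land (Nat.shiftRight Z m) 1) 0 = true) :
    Z.testBit m = false := by
  have h1 : (Z >>> m) &&& 1 = 0 := Nat.eq_of_beq_eq_true h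
  rw [Nat.testBit, Nat.and_comm, h1]
  rfl

lemma finish_all (m r : ℕ) (k : Stk) (hk : k.All) : (finish m r k).All := by
  cases k with
  | nil => trivial
  | cons S Z d rest =>
    show (Acc.casesOn (motive := fun _ => Stk) (kids r (Acc.mk S Z Z d rest))
        (fun S' Z' I' d' k' =>
          cond (Nat.beq I' 0)
            (cond (Nat.beq (Nat.land (Nat.shiftRight Z' m) 1) 0)
              (Stk.cons (clr S' m) (Nat.lor Z' (bit m)) (Nat.succ d') k')
              (Stk.cons 1 1 0 k'))
            (Stk.cons 1 1 0 k'))).All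
    have h := kids_all r (Acc.mk S Z Z d rest) (Cov.first hk.1) hk.2
    generalize kids r (Acc.mk S Z Z d rest) = a at h ⊢
    rcases a with ⟨S', Z', I', d', k'⟩
    obtain ⟨h1, h2⟩ := h
    simp only at h1 h2
    show (cond (Nat.beq I' 0)
            (cond (Nat.beq (Nat.land (Nat.shiftRight Z' m) 1) 0)
              (Stk.cons (clr S' m) (Nat.lor Z' (bit m)) (Nat.succ d') k')
              (Stk.cons 1 1 0 k'))
            (Stk.cons 1 1 0 k')).All
    cases hI : Nat.beq I' 0 with
    | false => exact ⟨valid_junk, h2⟩
    | true =>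
      simp only [cond_true]
      cases hZ : Nat.beq (Nat.land (Nat.shiftRight Z' m) 1) 0 with
      | false => exact ⟨valid_junk, h2⟩
      | true =>
        have hI0 : I' = 0 := Nat.eq_of_beq_eq_true hI
        subst hI0
        exact ⟨Cov.node h1 (testBit_of_land hZ), h2⟩

/-- The fact of a leaf. -/
noncomputable def pushLeaf (g a c : ℕ) (k : Stk) : Stk :=
  cond (Nat.ble (Nat.mod a 32) 27)
    (Stk.cons (clr (Nat.shiftLeft (lm g) a) c) (bit c) 1 k)
    (Stk.cons 1 1 0 k)

lemma pushLeaf_all (g a c : ℕ) (hg : g < 8) (k : Stk) (hk : k.All) : (pushLeaf g a c k).All := by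
  unfold pushLeaf
  cases h2 : Nat.ble (Nat.mod a 32) 27 with
  | false => exact ⟨valid_junk, hk⟩
  | true =>
    have h4 : a % 32 ≤ 27 := Nat.le_of_ble_eq_true h2
    exact ⟨valid_leaf g a c hg (by omega), hk⟩

/-- The fact of a complete line. -/
noncomputable def pushWon (g a : ℕ) (k : Stk) : Stk :=
  cond (Nat.ble (Nat.mod a 32) 27)
    (Stk.cons (Nat.shiftLeft (lm g) a) 0 0 k)
    (Stk.cons 1 1 0 k)

lemma pushWon_all (g a : ℕ) (hg : g < 8) (k : Stk) (hk : k.All) : (pushWon g a k).All := by
  unfold pushWon
  cases h2 : Nat.ble (Nat.mod a 32) 27 with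
  | false => exact ⟨valid_junk, hk⟩
  | true =>
    have h4 : a % 32 ≤ 27 := Nat.le_of_ble_eq_true h2
    exact ⟨valid_won g a hg (by omega), hk⟩

/-- Machine state. -/
structure St where
  i : ℕ
  t : Tr
  k : Stk

/-- Machine state invariant. -/
def St.All (s : St) : Prop := s.t.All ∧ s.k.All

/-- Field extraction. -/
def fld (w s mask : ℕ) : ℕ := Nat.land (Nat.shiftRight w s) mask

lemma fld_lt (w s : ℕ) : fld w s 7 < 8 := by
  have : fld w s 7 ≤ 7 := Nat.and_le_right
  omega

/-- Store the top of the stack. -/
noncomputable def store (s : St) : St :=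
  Stk.casesOn (motive := fun _ => St) s.k s
    (fun S Z d _ => St.mk (Nat.succ s.i) (Tr.ins s.t s.i S Z d) s.k)

lemma store_all (s : St) (h : s.All) : (store s).All := by
  rcases s with ⟨i, t, k⟩
  cases k with
  | nil => exact h
  | cons S Z d rest => exact ⟨Tr.ins_all h.1 _ h.2.1, h.2⟩

/-- One instruction.  Word layout: bits 0-2 opcode.
`0` leaf: orientation at 3, corner at 6, final cell at 16.  `1` node: move at 3, number of further
children at 13.  `2` load: index at 3.  `3` store.  `4` complete line: orientation at 3, corner at 6.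
`5` no operation. -/
noncomputable def step (w : ℕ) (s : St) : St :=
  let op := Nat.land w 7
  cond (Nat.beq op 0)
    (St.mk s.i s.t (pushLeaf (fld w 3 7) (fld w 6 1023) (fld w 16 1023) s.k))
    (cond (Nat.beq op 1)
      (St.mk s.i s.t (finish (fld w 3 1023) (Nat.shiftRight w 13) s.k))
      (cond (Nat.beq op 2)
        (St.mk s.i s.t (Tr.load s.t (Nat.shiftRight w 3) s.k))
        (cond (Nat.beq op 3)
          (store s)
          (cond (Nat.beq op 4)
            (St.mk s.i s.t (pushWon (fld w 3 7) (fld w 6 1023) s.k))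
            s))))

lemma step_all (w : ℕ) (s : St) (h : s.All) : (step w s).All := by
  unfold step
  simp only
  cases Nat.beq (Nat.land w 7) 0 with
  | true => exact ⟨h.1, pushLeaf_all _ _ _ (fld_lt _ _) _ h.2⟩
  | false =>
    simp only [cond_false]
    cases Nat.beq (Nat.land w 7) 1 with
    | true => exact ⟨h.1, finish_all _ _ _ h.2⟩
    | false =>
      simp only [cond_false]
      cases Nat.beq (Nat.land w 7) 2 with
      | true => exact ⟨h.1, Tr.load_all h.1 _ h.2⟩
      | false =>
        simp only [cond_false]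
        cases Nat.beq (Nat.land w 7) 3 with
        | true => exact store_all s h
        | false =>
          simp only [cond_false]
          cases Nat.beq (Nat.land w 7) 4 with
          | true => exact ⟨h.1, pushWon_all _ _ (fld_lt _ _) _ h.2⟩
          | false => exact h

/-- Run a literal of `2^k` words, low words first, strictly in the state. -/
noncomputable def runT (k : ℕ) : ℕ → St → St :=
  Nat.rec (motive := fun _ => ℕ → St → St) (fun w s => step w s)
    (fun j ih P s =>
      St.casesOn (motive := fun _ => St)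
        (ih (Nat.mod P (Nat.shiftLeft 1 (Nat.shiftLeft 32 j))) s)
        (fun i t stk => ih (Nat.shiftRight P (Nat.shiftLeft 32 j)) (St.mk i t stk))) k

lemma runT_all (k P : ℕ) (s : St) (h : s.All) : (runT k P s).All := by
  induction k generalizing P s with
  | zero => exact step_all P s h
  | succ j ih =>
    show (St.casesOn (motive := fun _ => St)
        (runT j (Nat.mod P (Nat.shiftLeft 1 (Nat.shiftLeft 32 j))) s)
        (fun i t stk => runT j (Nat.shiftRight P (Nat.shiftLeft 32 j)) (St.mk i t stk))).All
    have h1 := ih (Nat.mod P (Nat.shiftLeft 1 (Nat.shiftLeft 32 j))) s h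
    generalize runT j (Nat.mod P (Nat.shiftLeft 1 (Nat.shiftLeft 32 j))) s = x at h1 ⊢
    rcases x with ⟨i, t, stk⟩
    exact ih _ _ h1

/-- Run a list of literals, each of `2^k` words. -/
noncomputable def runL (k : ℕ) (l : List ℕ) : St → St :=
  List.rec (motive := fun _ => St → St) (fun s => s)
    (fun P _ ih s =>
      St.casesOn (motive := fun _ => St) (runT k P s) (fun i t stk => ih (St.mk i t stk))) l

lemma runL_all (k : ℕ) (l : List ℕ) (s : St) (h : s.All) : (runL k l s).All := by
  induction l generalizing s with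
  | nil => exact h
  | cons P l ih =>
    show (St.casesOn (motive := fun _ => St) (runT k P s) (fun i t stk => runL k l (St.mk i t stk))).All
    have h1 := runT_all k P s h
    generalize runT k P s = x at h1 ⊢
    rcases x with ⟨i, t, stk⟩
    exact ih _ h1

/-- Checker: the top of the final stack is the given fact. -/
noncomputable def checkRes (k : ℕ) (l : List ℕ) (s : St) (S Z d : ℕ) : Bool :=
  Stk.casesOn (motive := fun _ => Bool) (runL k l s).k false
    (fun S' Z' d' _ => and (Nat.beq S' S) (and (Nat.beq Z' Z) (Nat.ble d' d)))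

theorem valid_of_check {k : ℕ} {l : List ℕ} {s : St} (hs : s.All) {S Z d : ℕ}
    (h : checkRes k l s S Z d = true) : Valid d S Z := by
  have hv := (runL_all k l s hs).2
  unfold checkRes at h
  generalize (runL k l s).k = stk at hv h
  cases stk with
  | nil => exact absurd h (by simp)
  | cons S' Z' d' rest =>
    have h' : (and (Nat.beq S' S) (and (Nat.beq Z' Z) (Nat.ble d' d))) = true := h
    simp only [Bool.and_eq_true] at h'
    have h1 := Nat.eq_of_beq_eq_true h'.1
    have h2 := Nat.eq_of_beq_eq_true h'.2.1
    have h3 := Nat.le_of_ble_eq_true h'.2.2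
    subst h1
    subst h2
    exact hv.1.mono h3

/-- Start of a computation without imported facts. -/
theorem valid_of_check0 {k : ℕ} {l : List ℕ} {S Z d : ℕ}
    (h : checkRes k l (St.mk 0 .nil .nil) S Z d = true) : Valid d S Z :=
  valid_of_check (s := St.mk 0 .nil .nil) ⟨trivial, trivial⟩ h

/-- A valid root with empty support wins the game. -/
theorem win_of_valid {Z : ℕ} (h : Valid 21 0 Z) : Win 21 ∅ ∅ := by
  apply h
  · intro i hi
    simp at hi
  · intro i _
    simp

end Crest.Agent.Lib.SnakyC
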