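import Mathlib
import Crest.Prelude.Def_PolyominoGame

/-!
Game semantics for the Snaky Maker-Breaker game and the reduction of the final statement to a
finite game-tree statement `Win 21 ∅ ∅`.
-/

set_option autoImplicit false

open Crest.CombinatoricsR.PolyominoGame

namespace Crest.Agent.Lib.SnakyC

/-- Cells of the board. -/
abbrev Cell := ℤ × ℤ

/-- `Win n M B`: Maker, to move, holding `M` against Breaker's `B`, reaches a copy of Snaky with at
most `n` further claims. -/
def Win : ℕ → Finset Cell → Finset Cell → Prop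
  | 0, M, _ => ContainsCopy (M : Set Cell)
  | n + 1, M, B => ∃ m, m ∉ M ∧ m ∉ B ∧ ∀ x, x ∉ insert m M → x ∉ B → Win n (insert m M) (insert x B)

lemma containsCopy_mono {X Y : Set Cell} (h : ContainsCopy X) (hXY : X ⊆ Y) : ContainsCopy Y := by
  obtain ⟨t, e1, e2, h1, h2, h3⟩ := h
  refine ⟨t, e1, e2, h1, h2, ?_⟩
  rcases h3 with h3 | h3
  · exact Or.inl fun p hp => hXY (h3 p hp)
  · exact Or.inr fun p hp => hXY (h3 p hp)

lemma exists_free (s : Finset Cell) : ∃ c, c ∉ s := Infinite.exists_notMem_finset s

/-- A free cell. -/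
noncomputable def freeCell (s : Finset Cell) : Cell := Classical.choose (exists_free s)

lemma freeCell_spec (s : Finset Cell) : freeCell s ∉ s := Classical.choose_spec (exists_free s)

lemma win_of_copy (n : ℕ) (M B : Finset Cell) (h : ContainsCopy (M : Set Cell)) : Win n M B := by
  induction n generalizing M B with
  | zero => exact h
  | succ n ih =>
    obtain ⟨m, hm⟩ := exists_free (M ∪ B)
    rw [Finset.mem_union, not_or] at hm
    refine ⟨m, hm.1, hm.2, fun x _ _ => ih _ _ ?_⟩
    refine containsCopy_mono h ?_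
    intro y hy
    simp only [Finset.coe_insert, Set.mem_insert_iff]
    exact Or.inr hy

lemma win_succ (n : ℕ) (M B : Finset Cell) (h : Win n M B) : Win (n + 1) M B := by
  induction n generalizing M B with
  | zero => exact win_of_copy 1 M B h
  | succ n ih =>
    obtain ⟨m, h1, h2, h3⟩ := h
    exact ⟨m, h1, h2, fun x hx hx' => ih _ _ (h3 x hx hx')⟩

lemma win_mono {n n' : ℕ} (h : n ≤ n') (M B : Finset Cell) (hw : Win n M B) : Win n' M B := by
  induction h with
  | refl => exact hw
  | step _ ih => exact win_succ _ _ _ ih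

/-- Maker's choice at a position, `n + 1` moves left. -/
noncomputable def pick (n : ℕ) (M B : Finset Cell) : Cell :=
  open Classical in
  if h : Win (n + 1) M B then Classical.choose h else freeCell (M ∪ B)

lemma pick_free (n : ℕ) (M B : Finset Cell) : pick n M B ∉ M ∧ pick n M B ∉ B := by
  classical
  unfold pick
  split_ifs with h
  · have := Classical.choose_spec h
    exact ⟨this.1, this.2.1⟩
  · have := freeCell_spec (M ∪ B)
    rw [Finset.mem_union, not_or] at this
    exact this

lemma pick_win (n : ℕ) (M B : Finset Cell) (h : Win (n + 1) M B) (x : Cell)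
    (hx : x ∉ insert (pick n M B) M) (hx' : x ∉ B) :
    Win n (insert (pick n M B) M) (insert x B) := by
  classical
  have hp : pick n M B = Classical.choose h := by
    unfold pick
    rw [dif_pos h]
  rw [hp] at hx ⊢
  exact (Classical.choose_spec h).2.2 x hx hx'

/-- The position after the (reversed) list of replies. -/
noncomputable def st : List Cell → Finset Cell × Finset Cell
  | [] => (∅, ∅)
  | x :: l =>
      (insert (pick (20 - l.length) (st l).1 (st l).2) (st l).1, insert x (st l).2)

/-- Maker's policy. -/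
noncomputable def policy (l : List Cell) : Cell :=
  pick (20 - l.length) (st l.reverse).1 (st l.reverse).2

/-- Reversed prefix of replies. -/
def pre (b : ℕ → Cell) (k : ℕ) : List Cell := ((List.range k).map b).reverse

lemma pre_succ (b : ℕ → Cell) (k : ℕ) : pre b (k + 1) = b k :: pre b k := by
  simp [pre, List.range_succ]

lemma pre_length (b : ℕ → Cell) (k : ℕ) : (pre b k).length = k := by
  simp [pre]

lemma claim_eq (b : ℕ → Cell) (k : ℕ) :
    makerClaim policy b k = pick (20 - k) (st (pre b k)).1 (st (pre b k)).2 := by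
  simp [makerClaim, policy, pre]

lemma st_succ (b : ℕ → Cell) (k : ℕ) :
    st (pre b (k + 1)) = (insert (makerClaim policy b k) (st (pre b k)).1,
      insert (b k) (st (pre b k)).2) := by
  rw [pre_succ, claim_eq]
  simp [st, pre_length]

lemma mem_M (b : ℕ → Cell) (k : ℕ) (c : Cell) :
    c ∈ (st (pre b k)).1 ↔ ∃ j, j < k ∧ c = makerClaim policy b j := by
  induction k with
  | zero => simp [pre, st]
  | succ k ih =>
    rw [st_succ]
    simp only [Finset.mem_insert, ih]
    constructor
    · rintro (h | ⟨j, hj, h⟩)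
      · exact ⟨k, Nat.lt_succ_self k, h⟩
      · exact ⟨j, Nat.lt_succ_of_lt hj, h⟩
    · rintro ⟨j, hj, h⟩
      rcases Nat.lt_succ_iff_lt_or_eq.mp hj with hj' | rfl
      · exact Or.inr ⟨j, hj', h⟩
      · exact Or.inl h

lemma mem_B (b : ℕ → Cell) (k : ℕ) (c : Cell) :
    c ∈ (st (pre b k)).2 ↔ ∃ j, j < k ∧ c = b j := by
  induction k with
  | zero => simp [pre, st]
  | succ k ih =>
    rw [st_succ]
    simp only [Finset.mem_insert, ih]
    constructor
    · rintro (h | ⟨j, hj, h⟩)
      · exact ⟨k, Nat.lt_succ_self k, h⟩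
      · exact ⟨j, Nat.lt_succ_of_lt hj, h⟩
    · rintro ⟨j, hj, h⟩
      rcases Nat.lt_succ_iff_lt_or_eq.mp hj with hj' | rfl
      · exact Or.inr ⟨j, hj', h⟩
      · exact Or.inl h

/-- The final reduction: a winning position at the start gives the policy statement. -/
theorem statement_of_win (h : Win 21 ∅ ∅) :
    ∃ σ : List (ℤ × ℤ) → ℤ × ℤ, ∀ b : ℕ → ℤ × ℤ,
      (∀ k : ℕ, k < 20 →
        (∀ j : ℕ, j ≤ k → b k ≠ makerClaim σ b j) ∧
        (∀ j : ℕ, j < k → b k ≠ b j)) →
      (∀ k : ℕ, k ≤ 20 →
        (∀ j : ℕ, j < k → makerClaim σ b k ≠ makerClaim σ b j) ∧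
        (∀ j : ℕ, j < k → makerClaim σ b k ≠ b j)) ∧
      ContainsCopy {c | ∃ j : ℕ, j ≤ 20 ∧ c = makerClaim σ b j} := by
  refine ⟨policy, fun b hb => ?_⟩
  have hfree : ∀ k, makerClaim policy b k ∉ (st (pre b k)).1 ∧
      makerClaim policy b k ∉ (st (pre b k)).2 := by
    intro k
    rw [claim_eq]
    exact pick_free _ _ _
  refine ⟨fun k _ => ⟨fun j hj he => ?_, fun j hj he => ?_⟩, ?_⟩
  · exact (hfree k).1 ((mem_M b k _).2 ⟨j, hj, he⟩)
  · exact (hfree k).2 ((mem_B b k _).2 ⟨j, hj, he⟩)
  · -- the winning invariant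
    have hinv : ∀ k, k ≤ 20 → Win (21 - k) (st (pre b k)).1 (st (pre b k)).2 := by
      intro k
      induction k with
      | zero =>
        intro _
        simpa [pre, st] using h
      | succ k ih =>
        intro hk
        have hk' : k < 20 := hk
        have ih' := ih (le_of_lt hk')
        have e : 21 - k = (20 - k) + 1 := by omega
        rw [e] at ih'
        have e2 : 21 - (k + 1) = 20 - k := by omega
        rw [e2, st_succ]
        have hw := pick_win (20 - k) _ _ ih' (b k) ?_ ?_
        · rw [claim_eq]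
          exact hw
        · rw [← claim_eq, Finset.mem_insert, not_or]
          refine ⟨(hb k hk').1 k le_rfl, ?_⟩
          intro hm
          obtain ⟨j, hj, he⟩ := (mem_M b k _).1 hm
          exact (hb k hk').1 j hj.le he
        · intro hm
          obtain ⟨j, hj, he⟩ := (mem_B b k _).1 hm
          exact (hb k hk').2 j hj he
    have h20 := hinv 20 le_rfl
    have h20' : Win (0 + 1) (st (pre b 20)).1 (st (pre b 20)).2 := h20
    obtain ⟨x, hx⟩ := exists_free (insert (pick 0 (st (pre b 20)).1 (st (pre b 20)).2)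
      (st (pre b 20)).1 ∪ (st (pre b 20)).2)
    rw [Finset.mem_union, not_or] at hx
    have hw := pick_win 0 _ _ h20' x hx.1 hx.2
    refine containsCopy_mono hw ?_
    intro y hy
    simp only [Finset.coe_insert, Set.mem_insert_iff, Finset.mem_coe] at hy
    rcases hy with hy | hy
    · refine ⟨20, le_rfl, ?_⟩
      rw [hy, claim_eq]
    · obtain ⟨j, hj, he⟩ := (mem_M b 20 _).1 hy
      exact ⟨j, hj.le, he⟩

end Crest.Agent.Lib.SnakyC
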